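import Vale.Agent.P032.R2.H951.PlaneW2
import Vale.Agent.P032.S5.H843.Hand6

/-!
# P032, row A7: relations of pairs of points at distance one, without bound for the order

`exists_frame_relQ` : the frame for a relation `R` without limits between points of order `> 3`,
in which points with at least five colours have no points with four colours at distance one, with
prescribed palettes at finitely many points.
`rel5_of`, `rel6_of` : the statements in the plane for any such relation.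
`exists_pairW6_of`, `exists_e3V5_of`, `exists_e3V6_of` : the worlds `WT` and `E3`.
-/

set_option autoImplicit false

open Set Filter Topology Metric

noncomputable section

namespace Vale.Agent.P032.Six

open Vale.Agent.P032.S5.H843 Vale.Agent.P032.S5.H138 Vale.Agent.P032.S5.H926

/-- points with at least five colours have no points with four colours at distance one -/
def Cl5 (T : ℂ → Set (Fin 6)) : Prop :=
  ∀ z v, dist z v = 1 → 4 ≤ (T v).ncard → 5 ≤ (T z).ncard → False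

/-- no set of more than six indices -/
theorem notMem_XU6 {U : Fin 6 → Set ℂ} (z : ℂ) : z ∉ XU U 6 := by
  intro hz
  have h1 := hz univ (by rw [Set.ncard_univ, Nat.card_eq_fintype_card, Fintype.card_fin])
  have h2 : (⋃ j, U j) \ ⋃ i ∈ (univ : Set (Fin 6)), U i = ∅ := by
    rw [sdiff_eq_empty]
    exact fun x hx => by
      obtain ⟨j, hj⟩ := mem_iUnion.1 hx
      exact mem_iUnion₂.2 ⟨j, mem_univ j, hj⟩
  rw [h2, closure_empty] at h1
  exact h1

/-- **The frame** for a relation of pairs at distance one, with clean points of order `> 4` and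
prescribed palettes at finitely many points. -/
theorem exists_frame_relQ {U : Fin 6 → Set ℂ}
    (hU : ∀ i, Maximal (fun W : Set ℂ => IsOpen W ∧ ∀ x ∈ W, ∀ y ∈ W, dist x y ≠ 1) (U i))
    (hd : Dense (⋃ i, U i)) {m : ℕ} (hm : 4 ≤ m) (h4 : ∀ z, z ∉ XU U m)
    (hp : ∀ z ∈ XU U 4, ∀ v ∈ XU U 3, dist z v ≠ 1)
    {R : Set (ℂ × ℂ)} (hR : ∀ p ∈ R, dist p.1 p.2 = 1)
    (hX : ∀ z ∈ XU U 3, ∀ z' ∈ XU U 3, (z, z') ∉ closure R)
    {Q : Set ℂ} (hQ : Q.Finite) {S : ℂ → Set (Fin 6)} (hS : ∀ q ∈ Q, (S q).ncard ≤ 3 ∧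
      q ∉ closure ((⋃ j, U j) \ ⋃ i ∈ S q, U i)) :
    ∃ T, Irr U T ∧ Mn U T ∧ (∀ z, (T z).ncard ≤ m) ∧ (∀ q ∈ Q, T q ⊆ S q) ∧ Cl5 T ∧
      ∀ z z', 4 ≤ (T z).ncard → 4 ≤ (T z').ncard → (z, z') ∉ closure R := by
  classical
  have hK1 : ∀ p ∈ closure R, dist p.1 p.2 = 1 := by
    intro p hp
    have hc : IsClosed {p : ℂ × ℂ | dist p.1 p.2 = 1} :=
      isClosed_eq (continuous_fst.dist continuous_snd) continuous_const
    exact closure_minimal (fun p hp => hR p hp) hc hp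
  obtain ⟨N₅, V₀, hN₅, hV₀, hKN, hXV₀, hfree₀⟩ := exists_open_free₂ (isClosed_XU U 4)
    (isClosed_XU U 3) hp
  obtain ⟨V₁, hV₁, hXV₁, hfree₁⟩ := exists_open_avoid isClosed_closure (isClosed_XU U 3) hK1 hX
  set V : Set ℂ := V₀ ∩ V₁ with hVdef
  have hV : IsOpen V := hV₀.inter hV₁
  have hXV : XU U 3 ⊆ V := fun x hx => ⟨hXV₀ hx, hXV₁ hx⟩
  set N : ℂ → ℕ := fun x => if x ∈ V then (if x ∈ N₅ then m else 4) else 3 with hNdef
  have hNs : ∀ x, ∀ᶠ w in 𝓝 x, N x ≤ N w := by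
    intro x
    by_cases hx : x ∈ V
    · by_cases hx5 : x ∈ N₅
      · filter_upwards [hV.mem_nhds hx, hN₅.mem_nhds hx5] with w hw hw5
        simp only [hNdef, if_pos hx, if_pos hx5, if_pos hw, if_pos hw5, le_refl]
      · filter_upwards [hV.mem_nhds hx] with w hw
        simp only [hNdef, if_pos hx, if_neg hx5, if_pos hw]
        split_ifs <;> omega
    · filter_upwards with w
      simp only [hNdef, if_neg hx]
      split_ifs <;> omega
  have hN3 : ∀ x, 3 ≤ N x := by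
    intro x
    simp only [hNdef]
    split_ifs <;> omega
  have hex : ∀ n z, z ∉ XU U n → ∃ s : Set (Fin 6), s.ncard ≤ n ∧
      ∀ᶠ w in 𝓝 z, ∃ i ∈ s, w ∈ U i ∨ (w ∈ XX U ∧ i ∈ Pal U w) := by
    intro n z hz
    simp only [XU, mem_ofPred_eq] at hz
    push Not at hz
    obtain ⟨s, hs, hsz⟩ := hz
    exact ⟨s, hs, suf_of_notMem hd hsz⟩
  obtain ⟨T, hT, hmin, hle, hTQ⟩ := exists_frameQ (Mx_of_maximal hU hd)
    (fun i x hx => (mem_iff_of_maximal (hU i) x).2 hx) hNs hN3 (fun z _ => by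
      by_cases hz : z ∈ V
      · by_cases hz5 : z ∈ N₅
        · obtain ⟨s, h1, h2⟩ := hex m z (h4 z)
          exact ⟨s, by simpa only [hNdef, if_pos hz, if_pos hz5] using h1, h2⟩
        · obtain ⟨s, h1, h2⟩ := hex 4 z fun h => hz5 (hKN h)
          exact ⟨s, by simpa only [hNdef, if_pos hz, if_neg hz5] using h1, h2⟩
      · obtain ⟨s, h1, h2⟩ := hex 3 z fun h => hz (hXV h)
        exact ⟨s, by simpa only [hNdef, if_neg hz] using h1, h2⟩) hQ (S := S)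
    (fun q hq => ⟨(hS q hq).1.trans (hN3 q), suf_of_notMem hd (hS q hq).2⟩)
  have hV4 : ∀ v, 4 ≤ (T v).ncard → v ∈ V := by
    intro v hv
    by_contra hcon
    have h1 := hle v
    simp only [hNdef, if_neg hcon] at h1
    omega
  refine ⟨T, hT, hmin, fun z => (hle z).trans ?_, hTQ, fun z v hzv hv h5 => ?_,
    fun z z' hz hz' => hfree₁ z (hV4 z hz).2 z' (hV4 z' hz').2⟩
  · simp only [hNdef]
    split_ifs <;> omega
  · refine hfree₀ z ?_ v (hV4 v hv).1 hzv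
    by_contra hcon
    have h1 := hle z
    simp only [hNdef, if_neg hcon] at h1
    split_ifs at h1 <;> omega

/-- a world `P` given by a relation `RC` between points with at least four colours, with the
relation `RE` in the plane -/
structure RelW (P : (Fin 6 → Set ℂ) → (ℂ → Set (Fin 6)) → Prop)
    (RC : (Fin 6 → Set ℂ) → ℂ → ℂ → Prop)
    (RE : (Fin 6 → Set (EuclideanSpace ℝ (Fin 2))) → EuclideanSpace ℝ (Fin 2) →
      EuclideanSpace ℝ (Fin 2) → Prop) : Prop where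
  one : ∀ U x x', RC U x x' → dist x x' = 1
  tr : ∀ (U : Fin 6 → Set (EuclideanSpace ℝ (Fin 2))) x x', RC (fun i => φ ⁻¹' U i) x x' →
    RE U (φ x) (φ x')
  world : ∀ U T, Irr U T → Mn U T → Dense (⋃ i, U i) →
    (∀ z z', 4 ≤ (T z).ncard → 4 ≤ (T z').ncard → ¬ RC U z z') → P U T

section plane

variable {U : Fin 6 → Set (EuclideanSpace ℝ (Fin 2))}
  {P : (Fin 6 → Set ℂ) → (ℂ → Set (Fin 6)) → Prop} {RC : (Fin 6 → Set ℂ) → ℂ → ℂ → Prop}
  {RE : (Fin 6 → Set (EuclideanSpace ℝ (Fin 2))) → EuclideanSpace ℝ (Fin 2) →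
      EuclideanSpace ℝ (Fin 2) → Prop}

theorem dense_φ (hd : Dense (⋃ i, U i)) : Dense (⋃ i, φ ⁻¹' U i) := by
  rw [← preimage_iUnion]
  exact hd.preimage φ.toHomeomorph.isOpenMap

/-- the frame in `ℂ` for a family in the plane -/
theorem RelW.frame (W : RelW P RC RE)
    (hU : ∀ i, Maximal (fun W : Set (EuclideanSpace ℝ (Fin 2)) =>
      IsOpen W ∧ ∀ x ∈ W, ∀ y ∈ W, dist x y ≠ 1) (U i))
    (hd : Dense (⋃ i, U i)) {m : ℕ} (hm : 4 ≤ m)
    (h4 : ∀ z, z ∉ XU (fun i => φ ⁻¹' U i) m)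
    (hcon : ¬ ∃ z z', dist z z' = 1 ∧ z ∈ XU U 3 ∧ z' ∈ XU U 3 ∧
      (z ∈ XU U 4 ∨ (z, z') ∈ closure {p : EuclideanSpace ℝ (Fin 2) ×
        EuclideanSpace ℝ (Fin 2) | RE U p.1 p.2}))
    {Q : Set ℂ} (hQ : Q.Finite) {S : ℂ → Set (Fin 6)} (hS : ∀ q ∈ Q, (S q).ncard ≤ 3 ∧
      q ∉ closure ((⋃ j, φ ⁻¹' U j) \ ⋃ i ∈ S q, φ ⁻¹' U i)) :
    ∃ T, Irr (fun i => φ ⁻¹' U i) T ∧ Mn (fun i => φ ⁻¹' U i) T ∧ P (fun i => φ ⁻¹' U i) T ∧
      (∀ z, (T z).ncard ≤ m) ∧ (∀ q ∈ Q, T q ⊆ S q) ∧ Cl5 T := by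
  have hdist : ∀ p ∈ closure {p : ℂ × ℂ | RC (fun i => φ ⁻¹' U i) p.1 p.2},
      dist p.1 p.2 = 1 := by
    intro p hp
    have hc : IsClosed {p : ℂ × ℂ | dist p.1 p.2 = 1} :=
      isClosed_eq (continuous_fst.dist continuous_snd) continuous_const
    exact closure_minimal (fun p hp => W.one _ _ _ hp) hc hp
  obtain ⟨T, hT, hmin, hle, hTQ, hcl, hfree⟩ := exists_frame_relQ (U := fun i => φ ⁻¹' U i)
    (fun i => maximal_preimage (hU i) φ) (dense_φ hd) hm h4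
    (fun z hz v hv hzv => hcon ⟨φ z, φ v, by rw [φ.dist_map]; exact hzv,
      XU_anti U (by norm_num) (hXU 4 z hz), hXU 3 v hv, Or.inl (hXU 4 z hz)⟩)
    (R := {p : ℂ × ℂ | RC (fun i => φ ⁻¹' U i) p.1 p.2}) (fun p hp => W.one _ _ _ hp)
    (fun z hz z' hz' h => hcon ⟨φ z, φ z', by rw [φ.dist_map]; exact hdist _ h, hXU 3 z hz,
      hXU 3 z' hz', Or.inr (closure_transfer (fun x x' h => W.tr U x x' h) h)⟩) hQ hS
  exact ⟨T, hT, hmin, W.world _ T hT hmin (dense_φ hd)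
    (fun z z' hz hz' h => hfree z z' hz hz' (subset_closure h)), hle, hTQ, hcl⟩

/-- **Statement in the plane with a bound `m` for the order.** -/
theorem rel5_of (W : RelW P RC RE) {m : ℕ} (hm : 4 ≤ m)
    (top : ∀ (V : Fin 6 → Set ℂ) (T : ℂ → Set (Fin 6)), Irr V T → Mn V T → P V T →
      (∀ z, (T z).ncard ≤ m) → Cl5 T → False)
    (hU : ∀ i, Maximal (fun W : Set (EuclideanSpace ℝ (Fin 2)) =>
      IsOpen W ∧ ∀ x ∈ W, ∀ y ∈ W, dist x y ≠ 1) (U i))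
    (hd : Dense (⋃ i, U i)) :
    (∃ z, z ∈ XU U m) ∨ ∃ z z', dist z z' = 1 ∧ z ∈ XU U 3 ∧ z' ∈ XU U 3 ∧
      (z ∈ XU U 4 ∨ (z, z') ∈ closure {p : EuclideanSpace ℝ (Fin 2) ×
        EuclideanSpace ℝ (Fin 2) | RE U p.1 p.2}) := by
  by_contra hcon
  rw [not_or] at hcon
  obtain ⟨T, h1, h2, h3, h4, -, h6⟩ := W.frame hU hd hm (fun z hz => hcon.1 ⟨φ z, hXU m z hz⟩)
    hcon.2 (Q := ∅) Set.finite_empty (S := fun _ => ∅) (fun q hq => absurd hq (notMem_empty q))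
  exact top _ T h1 h2 h3 h4 h6

/-- **Statement in the plane without bound for the order**, with the alternative `Sil`. -/
theorem rel6_of (W : RelW P RC RE)
    (H5 : ∀ (V : Fin 6 → Set ℂ) (T : ℂ → Set (Fin 6)), Irr V T → Mn V T → P V T →
      (∀ z, (T z).ncard ≤ 5) → Cl5 T → False)
    (H6 : ∀ (V : Fin 6 → Set ℂ) (T : ℂ → Set (Fin 6)), Irr V T → Mn V T → P V T → Cl5 T →
      ∀ z, (T z).ncard = 6 → (∀ i, ∃ q, dist q z = 1 ∧ i ∈ T q ∧ (T q).ncard = 2) → False)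
    (hU : ∀ i, Maximal (fun W : Set (EuclideanSpace ℝ (Fin 2)) =>
      IsOpen W ∧ ∀ x ∈ W, ∀ y ∈ W, dist x y ≠ 1) (U i))
    (hd : Dense (⋃ i, U i)) :
    (∃ z, Sil U z) ∨ ∃ z z', dist z z' = 1 ∧ z ∈ XU U 3 ∧ z' ∈ XU U 3 ∧
      (z ∈ XU U 4 ∨ (z, z') ∈ closure {p : EuclideanSpace ℝ (Fin 2) ×
        EuclideanSpace ℝ (Fin 2) | RE U p.1 p.2}) := by
  rcases rel5_of W (m := 5) (by norm_num) H5 hU hd with ⟨z₀, hz₀⟩ | h
  swap
  · exact Or.inr h
  by_contra hcon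
  rw [not_or] at hcon
  obtain ⟨z, rfl⟩ := φ.surjective z₀
  have hzX : z ∈ XU (fun i => φ ⁻¹' U i) 5 := by
    intro s hs
    rw [hdf, hcl]
    exact hz₀ s hs
  have hS : ∀ i : Fin 6, ∃ q j, dist q z = 1 ∧
      q ∉ closure ((⋃ k, φ ⁻¹' U k) \ ⋃ k ∈ ({i, j} : Set (Fin 6)), φ ⁻¹' U k) := by
    intro i
    by_contra hc
    push Not at hc
    refine hcon.1 ⟨φ z, hz₀, i, fun q hq j => ?_⟩
    obtain ⟨q, rfl⟩ := φ.surjective q
    rw [φ.dist_map] at hq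
    have h1 := hc q j hq
    rw [hdf, hcl] at h1
    exact h1
  choose q₀ j hq₀ hj using hS
  obtain ⟨q, hqA, hqi⟩ := exists_distinct
    (fun i => {p | dist p z = 1 ∧
      p ∈ (closure ((⋃ k, φ ⁻¹' U k) \ ⋃ k ∈ ({i, j i} : Set (Fin 6)), φ ⁻¹' U k))ᶜ})
    (fun i => infinite_circle (hq₀ i) isClosed_closure.isOpen_compl (hj i))
  set S : ℂ → Set (Fin 6) := fun p => {k | ∃ i, q i = p ∧ (k = i ∨ k = j i)} with hSdef
  have hSq : ∀ i, S (q i) = {i, j i} := by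
    intro i
    ext k
    simp only [hSdef, mem_ofPred_eq, mem_insert_iff, mem_singleton_iff]
    constructor
    · rintro ⟨i', h1, h2⟩
      rw [hqi h1] at h2
      exact h2
    · exact fun h => ⟨i, rfl, h⟩
  have h2 : ∀ i, (S (q i)).ncard ≤ 2 := fun i => by
    rw [hSq]
    exact (Set.ncard_insert_le _ _).trans (by rw [Set.ncard_singleton])
  obtain ⟨T, h, hmin, hP, -, hTQ, hu⟩ := W.frame hU hd (m := 6) (by norm_num)
    (fun z => notMem_XU6 z) hcon.2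
    (Q := range q) (finite_range q) (S := S) (by
      rintro _ ⟨i, rfl⟩
      refine ⟨(h2 i).trans (by norm_num), ?_⟩
      rw [hSq]
      exact (hqA i).2)
  have h6 := univ_of_XU h hzX
  refine H6 _ T h hmin hP hu z h6 fun i => ⟨q i, (hqA i).1, ?_⟩
  have h3 := hTQ (q i) ⟨i, rfl⟩
  have h4 := two_le6 h h6 (hqA i).1
  have h5 := h2 i
  have h7 : T (q i) = S (q i) := Set.eq_of_subset_of_ncard_le h3 (by omega) (Set.toFinite _)
  have h8 := Set.ncard_le_ncard h3 (Set.toFinite _)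
  refine ⟨?_, by omega⟩
  rw [h7, hSq]
  exact mem_insert _ _

end plane

/-- the world `WT` -/
theorem relW_WT : RelW WT WV WV where
  one := fun _ _ _ h => h.1
  tr := fun _ x x' h => hWV x x' h
  world := fun U T hT hmin hd h => ⟨hT, fun {x y} hxy hy hx => by
    by_contra hcon
    have h3 : 3 ≤ (T y ∩ T x).ncard := by omega
    exact h y x hy hx (WV_of hT hmin hd hxy hy hx h3)⟩

/-- the world `E3` -/
theorem relW_E3 : RelW (fun _ T => E3 T) EV EV where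
  one := fun _ _ _ h => h.1
  tr := fun _ x x' h => hEV x x' h
  world := fun _ _ hT hmin hd h => fun {z _ _ _ _} hz {y} hyz hy hA =>
    h z y (ncard_DPt hz) hy (EV_of hT hmin hd hz hyz hy hA)

/-- the world `NX` of the stopped arcs -/
theorem relW_NX : RelW (fun _ T => NX T) XV XV where
  one := fun _ _ _ h => h.1
  tr := fun _ x x' h => hXV x x' h
  world := fun U T hT hmin hd h => fun {z a b c d} hz {y} hyz hy => by
    have key : (((T y ∩ {a, b}).Nonempty ∧ (T y ∩ {c, d}).Nonempty) ∨ Acc T z {a, b} y) →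
        False := fun hX => h z y (ncard_DPt hz) (by rw [hy]) (XV_of hT hmin hd hz hyz hy hX)
    exact ⟨fun h1 => key (Or.inl h1), fun h1 => key (Or.inr h1)⟩

/-- minimal sufficient sets exist -/
theorem exists_MS {E : Type*} [PseudoMetricSpace E] (U : Fin 6 → Set E) (x : E) :
    ∃ Q, MS U Q x := by
  obtain ⟨Q, hQ⟩ := (Set.toFinite {Q : Set (Fin 6) |
    x ∉ closure ((⋃ j, U j) \ ⋃ i ∈ Q, U i)}).exists_minimal ⟨univ, by
      have h2 : (⋃ j, U j) \ ⋃ i ∈ (univ : Set (Fin 6)), U i = ∅ := by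
        rw [sdiff_eq_empty]
        exact fun x hx => by
          obtain ⟨j, hj⟩ := mem_iUnion.1 hx
          exact mem_iUnion₂.2 ⟨j, mem_univ j, hj⟩
      simp only [mem_ofPred_eq, h2, closure_empty]
      exact notMem_empty x⟩
  refine ⟨Q, hQ.1, fun s hs => ?_⟩
  by_contra hcon
  exact hs.2 (hQ.2 hcon hs.1)

/-- points of order `> 4` and `> 3` at distance one have minimal sufficient sets with three common
elements -/
theorem WV_of_XU {E : Type*} [PseudoMetricSpace E] {U : Fin 6 → Set E} {z z' : E}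
    (hzz : dist z z' = 1) (hz : z ∈ XU U 4) (hz' : z' ∈ XU U 3) : WV U z z' := by
  obtain ⟨Q, hQ⟩ := exists_MS U z
  obtain ⟨Q', hQ'⟩ := exists_MS U z'
  have h1 : 5 ≤ Q.ncard := by
    by_contra hcon
    exact hQ.1 (hz Q (by omega))
  have h2 : 4 ≤ Q'.ncard := by
    by_contra hcon
    exact hQ'.1 (hz' Q' (by omega))
  refine ⟨hzz, Q, Q', hQ, hQ', by omega, h2, ?_⟩
  have h3 := Set.ncard_union_add_ncard_inter Q Q' (Set.toFinite _) (Set.toFinite _)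
  have h4 := Set.ncard_le_ncard (s := Q ∪ Q') (t := univ) (subset_univ _) (Set.toFinite _)
  rw [Set.ncard_univ, Nat.card_eq_fintype_card, Fintype.card_fin] at h4
  omega

section plane

variable {U : Fin 6 → Set (EuclideanSpace ℝ (Fin 2))}

/-- **World `WT`, no bound for the order.** -/
theorem exists_pairW6_of
    (H5 : ∀ (V : Fin 6 → Set ℂ) (T : ℂ → Set (Fin 6)), Irr V T → Mn V T → WT V T →
      (∀ z, (T z).ncard ≤ 5) → Cl5 T → False)
    (H6 : ∀ (V : Fin 6 → Set ℂ) (T : ℂ → Set (Fin 6)), Irr V T → Mn V T → WT V T → Cl5 T →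
      ∀ z, (T z).ncard = 6 → (∀ i, ∃ q, dist q z = 1 ∧ i ∈ T q ∧ (T q).ncard = 2) → False)
    (hU : ∀ i, Maximal (fun W : Set (EuclideanSpace ℝ (Fin 2)) =>
      IsOpen W ∧ ∀ x ∈ W, ∀ y ∈ W, dist x y ≠ 1) (U i))
    (hd : Dense (⋃ i, U i)) :
    (∃ z, Sil U z) ∨ ∃ z z', dist z z' = 1 ∧ z ∈ XU U 3 ∧ z' ∈ XU U 3 ∧
      (z, z') ∈ closure {p : EuclideanSpace ℝ (Fin 2) × EuclideanSpace ℝ (Fin 2) |
        WV U p.1 p.2} := by
  refine (rel6_of relW_WT H5 H6 hU hd).imp id ?_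
  rintro ⟨z, z', h1, h2, h3, h4 | h4⟩
  · exact ⟨z, z', h1, h2, h3, subset_closure (WV_of_XU h1 h4 h3)⟩
  · exact ⟨z, z', h1, h2, h3, h4⟩

/-- **World `E3`, bound `m` for the order**, points of order `> 4` clean. -/
theorem exists_e3V5_of {m : ℕ} (hm : 4 ≤ m)
    (top : ∀ (V : Fin 6 → Set ℂ) (T : ℂ → Set (Fin 6)), Irr V T → Mn V T → E3 T →
      (∀ z, (T z).ncard ≤ m) → Cl5 T → False)
    (hU : ∀ i, Maximal (fun W : Set (EuclideanSpace ℝ (Fin 2)) =>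
      IsOpen W ∧ ∀ x ∈ W, ∀ y ∈ W, dist x y ≠ 1) (U i))
    (hd : Dense (⋃ i, U i)) :
    (∃ z, z ∈ XU U m) ∨ ∃ z z', dist z z' = 1 ∧ z ∈ XU U 3 ∧ z' ∈ XU U 3 ∧
      (z ∈ XU U 4 ∨ (z, z') ∈ closure {p : EuclideanSpace ℝ (Fin 2) ×
        EuclideanSpace ℝ (Fin 2) | EV U p.1 p.2}) :=
  rel5_of relW_E3 hm top hU hd

/-- **World `E3`, no bound for the order.** -/
theorem exists_e3V6_of
    (H5 : ∀ (V : Fin 6 → Set ℂ) (T : ℂ → Set (Fin 6)), Irr V T → Mn V T → E3 T →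
      (∀ z, (T z).ncard ≤ 5) → Cl5 T → False)
    (H6 : ∀ (V : Fin 6 → Set ℂ) (T : ℂ → Set (Fin 6)), Irr V T → Mn V T → E3 T → Cl5 T →
      ∀ z, (T z).ncard = 6 → (∀ i, ∃ q, dist q z = 1 ∧ i ∈ T q ∧ (T q).ncard = 2) → False)
    (hU : ∀ i, Maximal (fun W : Set (EuclideanSpace ℝ (Fin 2)) =>
      IsOpen W ∧ ∀ x ∈ W, ∀ y ∈ W, dist x y ≠ 1) (U i))
    (hd : Dense (⋃ i, U i)) :
    (∃ z, Sil U z) ∨ ∃ z z', dist z z' = 1 ∧ z ∈ XU U 3 ∧ z' ∈ XU U 3 ∧
      (z ∈ XU U 4 ∨ (z, z') ∈ closure {p : EuclideanSpace ℝ (Fin 2) ×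
        EuclideanSpace ℝ (Fin 2) | EV U p.1 p.2}) :=
  rel6_of relW_E3 H5 H6 hU hd

end plane

end Vale.Agent.P032.Six
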