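import Vale.Agent.P032.R2.H951.Rel6

/-!
# P032, row A7: the statements of the hand-ins for the worlds `WT` and `E3`, written out

`resultW6` : pairs of points of order `> 3` at distance one with three common indices.
`resultE6` : limits of exact arcs of two-pair points.
`resultW5`, `resultE5` : the same with a point of order `> 5` as the first alternative.
-/

set_option autoImplicit false

open Set Filter Topology Metric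

namespace Vale.Agent.P032.Six

open Vale.Agent.P032.S5.H843 Vale.Agent.P032.S5.H138 Vale.Agent.P032.S5.H926

/-- **World `WT`**, written out, no bound for the order. -/
theorem resultW6
    (H5 : ∀ (V : Fin 6 → Set ℂ) (T : ℂ → Set (Fin 6)), Irr V T → Mn V T → WT V T →
      (∀ z, (T z).ncard ≤ 5) → Cl5 T → False)
    (H6 : ∀ (V : Fin 6 → Set ℂ) (T : ℂ → Set (Fin 6)), Irr V T → Mn V T → WT V T → Cl5 T →
      ∀ z, (T z).ncard = 6 → (∀ i, ∃ q, dist q z = 1 ∧ i ∈ T q ∧ (T q).ncard = 2) → False) :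
    (∀ V : Fin 6 → Set (EuclideanSpace ℝ (Fin 2)), (∀ i, IsOpen (V i)) →
      (∀ i, ∀ x ∈ V i, ∀ y ∈ V i, dist x y ≠ 1) → Dense (⋃ i, V i) →
      ∃ U : Fin 6 → Set (EuclideanSpace ℝ (Fin 2)), (∀ i, V i ⊆ U i) ∧ Dense (⋃ i, U i) ∧
        ∀ i, Maximal (fun W : Set (EuclideanSpace ℝ (Fin 2)) =>
          IsOpen W ∧ ∀ x ∈ W, ∀ y ∈ W, dist x y ≠ 1) (U i)) ∧
    (∀ U : Fin 6 → Set (EuclideanSpace ℝ (Fin 2)), Dense (⋃ i, U i) →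
      (∀ i, Maximal (fun W : Set (EuclideanSpace ℝ (Fin 2)) =>
        IsOpen W ∧ ∀ x ∈ W, ∀ y ∈ W, dist x y ≠ 1) (U i)) →
      (∃ z, (∀ s : Set (Fin 6), s.ncard ≤ 5 → z ∈ closure ((⋃ j, U j) \ ⋃ i ∈ s, U i)) ∧
        ∃ i : Fin 6, ∀ q, dist q z = 1 → ∀ j : Fin 6,
          q ∈ closure ((⋃ k, U k) \ ⋃ k ∈ ({i, j} : Set (Fin 6)), U k)) ∨
      ∃ z z', dist z z' = 1 ∧
        (∀ s : Set (Fin 6), s.ncard ≤ 3 → z ∈ closure ((⋃ j, U j) \ ⋃ i ∈ s, U i)) ∧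
        (∀ s : Set (Fin 6), s.ncard ≤ 3 → z' ∈ closure ((⋃ j, U j) \ ⋃ i ∈ s, U i)) ∧
        (z, z') ∈ closure {p : EuclideanSpace ℝ (Fin 2) × EuclideanSpace ℝ (Fin 2) |
          dist p.1 p.2 = 1 ∧ ∃ Q Q' : Set (Fin 6),
            (p.1 ∉ closure ((⋃ j, U j) \ ⋃ i ∈ Q, U i) ∧
              ∀ s ⊂ Q, p.1 ∈ closure ((⋃ j, U j) \ ⋃ i ∈ s, U i)) ∧
            (p.2 ∉ closure ((⋃ j, U j) \ ⋃ i ∈ Q', U i) ∧
              ∀ s ⊂ Q', p.2 ∈ closure ((⋃ j, U j) \ ⋃ i ∈ s, U i)) ∧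
            4 ≤ Q.ncard ∧ 4 ≤ Q'.ncard ∧ 3 ≤ (Q ∩ Q').ncard}) := by
  refine ⟨fun V hV hfree hd => ?_, fun U hd hU => exists_pairW6_of H5 H6 hU hd⟩
  choose U hVU hU using fun i => Vale.Agent.P032.S5.H926.exists_maximal_ge (hV i) (hfree i)
  exact ⟨U, hVU, hd.mono (iUnion_mono hVU), hU⟩

/-- **World `E3`**, written out, no bound for the order. -/
theorem resultE6
    (H5 : ∀ (V : Fin 6 → Set ℂ) (T : ℂ → Set (Fin 6)), Irr V T → Mn V T → E3 T →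
      (∀ z, (T z).ncard ≤ 5) → Cl5 T → False)
    (H6 : ∀ (V : Fin 6 → Set ℂ) (T : ℂ → Set (Fin 6)), Irr V T → Mn V T → E3 T → Cl5 T →
      ∀ z, (T z).ncard = 6 → (∀ i, ∃ q, dist q z = 1 ∧ i ∈ T q ∧ (T q).ncard = 2) → False) :
    (∀ V : Fin 6 → Set (EuclideanSpace ℝ (Fin 2)), (∀ i, IsOpen (V i)) →
      (∀ i, ∀ x ∈ V i, ∀ y ∈ V i, dist x y ≠ 1) → Dense (⋃ i, V i) →
      ∃ U : Fin 6 → Set (EuclideanSpace ℝ (Fin 2)), (∀ i, V i ⊆ U i) ∧ Dense (⋃ i, U i) ∧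
        ∀ i, Maximal (fun W : Set (EuclideanSpace ℝ (Fin 2)) =>
          IsOpen W ∧ ∀ x ∈ W, ∀ y ∈ W, dist x y ≠ 1) (U i)) ∧
    (∀ U : Fin 6 → Set (EuclideanSpace ℝ (Fin 2)), Dense (⋃ i, U i) →
      (∀ i, Maximal (fun W : Set (EuclideanSpace ℝ (Fin 2)) =>
        IsOpen W ∧ ∀ x ∈ W, ∀ y ∈ W, dist x y ≠ 1) (U i)) →
      (∃ z, (∀ s : Set (Fin 6), s.ncard ≤ 5 → z ∈ closure ((⋃ j, U j) \ ⋃ i ∈ s, U i)) ∧
        ∃ i : Fin 6, ∀ q, dist q z = 1 → ∀ j : Fin 6,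
          q ∈ closure ((⋃ k, U k) \ ⋃ k ∈ ({i, j} : Set (Fin 6)), U k)) ∨
      ∃ z z', dist z z' = 1 ∧
        (∀ s : Set (Fin 6), s.ncard ≤ 3 → z ∈ closure ((⋃ j, U j) \ ⋃ i ∈ s, U i)) ∧
        (∀ s : Set (Fin 6), s.ncard ≤ 3 → z' ∈ closure ((⋃ j, U j) \ ⋃ i ∈ s, U i)) ∧
        ((∀ s : Set (Fin 6), s.ncard ≤ 4 → z ∈ closure ((⋃ j, U j) \ ⋃ i ∈ s, U i)) ∨
        (z, z') ∈ closure {p : EuclideanSpace ℝ (Fin 2) × EuclideanSpace ℝ (Fin 2) |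
          dist p.1 p.2 = 1 ∧ ∃ a b c d : Fin 6, [a, b, c, d].Nodup ∧
            (p.1 ∉ closure ((⋃ j, U j) \ ⋃ i ∈ ({a, b, c, d} : Set (Fin 6)), U i) ∧
              ∀ s ⊂ ({a, b, c, d} : Set (Fin 6)),
                p.1 ∈ closure ((⋃ j, U j) \ ⋃ i ∈ s, U i)) ∧
            (∃ u v, dist u p.1 = 1 ∧ dist v p.1 = 1 ∧ ∃ r > 0,
              (∀ y, dist y p.1 = 1 → dist y u < r → y ∈ closure (U a) ∧ y ∈ closure (U b) ∧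
                y ∉ closure ((⋃ j, U j) \ ⋃ i ∈ ({a, b} : Set (Fin 6)), U i)) ∧
              ∀ y, dist y p.1 = 1 → dist y v < r → y ∈ closure (U c) ∧ y ∈ closure (U d) ∧
                y ∉ closure ((⋃ j, U j) \ ⋃ i ∈ ({c, d} : Set (Fin 6)), U i)) ∧
            (∃ Q : Set (Fin 6), 4 ≤ Q.ncard ∧
              (p.2 ∉ closure ((⋃ j, U j) \ ⋃ i ∈ Q, U i) ∧
                ∀ s ⊂ Q, p.2 ∈ closure ((⋃ j, U j) \ ⋃ i ∈ s, U i))) ∧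
            ∀ ε > 0, ∃ u, dist u p.1 = 1 ∧ dist u p.2 < ε ∧ ∃ r > 0,
              ∀ y, dist y p.1 = 1 → dist y u < r → y ∈ closure (U a) ∧ y ∈ closure (U b) ∧
                y ∉ closure ((⋃ j, U j) \ ⋃ i ∈ ({a, b} : Set (Fin 6)), U i)})) := by
  refine ⟨fun V hV hfree hd => ?_, fun U hd hU => exists_e3V6_of H5 H6 hU hd⟩
  choose U hVU hU using fun i => Vale.Agent.P032.S5.H926.exists_maximal_ge (hV i) (hfree i)
  exact ⟨U, hVU, hd.mono (iUnion_mono hVU), hU⟩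

/-- **World `WT`**, written out, first alternative: a point of order `> 5`. -/
theorem resultW5
    (H5 : ∀ (V : Fin 6 → Set ℂ) (T : ℂ → Set (Fin 6)), Irr V T → Mn V T → WT V T →
      (∀ z, (T z).ncard ≤ 5) → False) :
    (∀ V : Fin 6 → Set (EuclideanSpace ℝ (Fin 2)), (∀ i, IsOpen (V i)) →
      (∀ i, ∀ x ∈ V i, ∀ y ∈ V i, dist x y ≠ 1) → Dense (⋃ i, V i) →
      ∃ U : Fin 6 → Set (EuclideanSpace ℝ (Fin 2)), (∀ i, V i ⊆ U i) ∧ Dense (⋃ i, U i) ∧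
        ∀ i, Maximal (fun W : Set (EuclideanSpace ℝ (Fin 2)) =>
          IsOpen W ∧ ∀ x ∈ W, ∀ y ∈ W, dist x y ≠ 1) (U i)) ∧
    (∀ U : Fin 6 → Set (EuclideanSpace ℝ (Fin 2)), Dense (⋃ i, U i) →
      (∀ i, Maximal (fun W : Set (EuclideanSpace ℝ (Fin 2)) =>
        IsOpen W ∧ ∀ x ∈ W, ∀ y ∈ W, dist x y ≠ 1) (U i)) →
      (∃ z, ∀ s : Set (Fin 6), s.ncard ≤ 5 → z ∈ closure ((⋃ j, U j) \ ⋃ i ∈ s, U i)) ∨
      ∃ z z', dist z z' = 1 ∧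
        (∀ s : Set (Fin 6), s.ncard ≤ 3 → z ∈ closure ((⋃ j, U j) \ ⋃ i ∈ s, U i)) ∧
        (∀ s : Set (Fin 6), s.ncard ≤ 3 → z' ∈ closure ((⋃ j, U j) \ ⋃ i ∈ s, U i)) ∧
        (z, z') ∈ closure {p : EuclideanSpace ℝ (Fin 2) × EuclideanSpace ℝ (Fin 2) |
          dist p.1 p.2 = 1 ∧ ∃ Q Q' : Set (Fin 6),
            (p.1 ∉ closure ((⋃ j, U j) \ ⋃ i ∈ Q, U i) ∧
              ∀ s ⊂ Q, p.1 ∈ closure ((⋃ j, U j) \ ⋃ i ∈ s, U i)) ∧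
            (p.2 ∉ closure ((⋃ j, U j) \ ⋃ i ∈ Q', U i) ∧
              ∀ s ⊂ Q', p.2 ∈ closure ((⋃ j, U j) \ ⋃ i ∈ s, U i)) ∧
            4 ≤ Q.ncard ∧ 4 ≤ Q'.ncard ∧ 3 ≤ (Q ∩ Q').ncard}) := by
  refine ⟨fun V hV hfree hd => ?_, fun U hd hU =>
    exists_pairW_of (n := 5) (by norm_num) H5 hU hd⟩
  choose U hVU hU using fun i => Vale.Agent.P032.S5.H926.exists_maximal_ge (hV i) (hfree i)
  exact ⟨U, hVU, hd.mono (iUnion_mono hVU), hU⟩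

/-- **World `E3`**, written out, first alternative: a point of order `> 5`. -/
theorem resultE5
    (H5 : ∀ (V : Fin 6 → Set ℂ) (T : ℂ → Set (Fin 6)), Irr V T → Mn V T → E3 T →
      (∀ z, (T z).ncard ≤ 5) → Cl5 T → False) :
    (∀ V : Fin 6 → Set (EuclideanSpace ℝ (Fin 2)), (∀ i, IsOpen (V i)) →
      (∀ i, ∀ x ∈ V i, ∀ y ∈ V i, dist x y ≠ 1) → Dense (⋃ i, V i) →
      ∃ U : Fin 6 → Set (EuclideanSpace ℝ (Fin 2)), (∀ i, V i ⊆ U i) ∧ Dense (⋃ i, U i) ∧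
        ∀ i, Maximal (fun W : Set (EuclideanSpace ℝ (Fin 2)) =>
          IsOpen W ∧ ∀ x ∈ W, ∀ y ∈ W, dist x y ≠ 1) (U i)) ∧
    (∀ U : Fin 6 → Set (EuclideanSpace ℝ (Fin 2)), Dense (⋃ i, U i) →
      (∀ i, Maximal (fun W : Set (EuclideanSpace ℝ (Fin 2)) =>
        IsOpen W ∧ ∀ x ∈ W, ∀ y ∈ W, dist x y ≠ 1) (U i)) →
      (∃ z, ∀ s : Set (Fin 6), s.ncard ≤ 5 → z ∈ closure ((⋃ j, U j) \ ⋃ i ∈ s, U i)) ∨
      ∃ z z', dist z z' = 1 ∧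
        (∀ s : Set (Fin 6), s.ncard ≤ 3 → z ∈ closure ((⋃ j, U j) \ ⋃ i ∈ s, U i)) ∧
        (∀ s : Set (Fin 6), s.ncard ≤ 3 → z' ∈ closure ((⋃ j, U j) \ ⋃ i ∈ s, U i)) ∧
        ((∀ s : Set (Fin 6), s.ncard ≤ 4 → z ∈ closure ((⋃ j, U j) \ ⋃ i ∈ s, U i)) ∨
        (z, z') ∈ closure {p : EuclideanSpace ℝ (Fin 2) × EuclideanSpace ℝ (Fin 2) |
          dist p.1 p.2 = 1 ∧ ∃ a b c d : Fin 6, [a, b, c, d].Nodup ∧
            (p.1 ∉ closure ((⋃ j, U j) \ ⋃ i ∈ ({a, b, c, d} : Set (Fin 6)), U i) ∧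
              ∀ s ⊂ ({a, b, c, d} : Set (Fin 6)),
                p.1 ∈ closure ((⋃ j, U j) \ ⋃ i ∈ s, U i)) ∧
            (∃ u v, dist u p.1 = 1 ∧ dist v p.1 = 1 ∧ ∃ r > 0,
              (∀ y, dist y p.1 = 1 → dist y u < r → y ∈ closure (U a) ∧ y ∈ closure (U b) ∧
                y ∉ closure ((⋃ j, U j) \ ⋃ i ∈ ({a, b} : Set (Fin 6)), U i)) ∧
              ∀ y, dist y p.1 = 1 → dist y v < r → y ∈ closure (U c) ∧ y ∈ closure (U d) ∧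
                y ∉ closure ((⋃ j, U j) \ ⋃ i ∈ ({c, d} : Set (Fin 6)), U i)) ∧
            (∃ Q : Set (Fin 6), 4 ≤ Q.ncard ∧
              (p.2 ∉ closure ((⋃ j, U j) \ ⋃ i ∈ Q, U i) ∧
                ∀ s ⊂ Q, p.2 ∈ closure ((⋃ j, U j) \ ⋃ i ∈ s, U i))) ∧
            ∀ ε > 0, ∃ u, dist u p.1 = 1 ∧ dist u p.2 < ε ∧ ∃ r > 0,
              ∀ y, dist y p.1 = 1 → dist y u < r → y ∈ closure (U a) ∧ y ∈ closure (U b) ∧
                y ∉ closure ((⋃ j, U j) \ ⋃ i ∈ ({a, b} : Set (Fin 6)), U i)})) := by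
  refine ⟨fun V hV hfree hd => ?_, fun U hd hU =>
    exists_e3V5_of (m := 5) (by norm_num) H5 hU hd⟩
  choose U hVU hU using fun i => Vale.Agent.P032.S5.H926.exists_maximal_ge (hV i) (hfree i)
  exact ⟨U, hVU, hd.mono (iUnion_mono hVU), hU⟩

end Vale.Agent.P032.Six
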