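import Vale.Agent.P032.R2.H609.W2
import Vale.Agent.P032.R2.H479.StopV

/-!
# P032, row A7: the worlds `WT` and `E3`, statements in the plane

`MS U Q x` : `Q` is a minimal set of indices with `⋃ i ∈ Q, U i` sufficient near `x`.
`WV U x x'` : `x`, `x'` at distance one have minimal sufficient sets `Q`, `Q'` with at least four
elements and at least three common elements.
`EV U x x'` : `x` is a two-pair point `ab | cd`, `x'` is a point at distance one with a minimal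
sufficient set of at least four elements, a limit of exact `ab`-arcs of the unit circle about `x`.
`exists_frame_rel` : the frame in which a relation of pairs at distance one does not hold between
points with at least four colours, for any relation without limits between points of order `> 3`.
`exists_pairW_of`, `exists_e3V_of` : statements in the plane, any bound `n ≥ 3` for the order.
-/

set_option autoImplicit false

open Set Filter Topology Metric

noncomputable section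

namespace Vale.Agent.P032.Six

open Vale.Agent.P032.S5.H843 Vale.Agent.P032.S5.H138 Vale.Agent.P032.S5.H926

/-- `Q` is a minimal set of indices which suffices near `x` -/
def MS {E : Type*} [PseudoMetricSpace E] (U : Fin 6 → Set E) (Q : Set (Fin 6)) (x : E) : Prop :=
  x ∉ closure ((⋃ j, U j) \ ⋃ i ∈ Q, U i) ∧
    ∀ s ⊂ Q, x ∈ closure ((⋃ j, U j) \ ⋃ i ∈ s, U i)

/-- points at distance one with minimal sufficient sets with at least four elements and at least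
three common elements -/
def WV {E : Type*} [PseudoMetricSpace E] (U : Fin 6 → Set E) (x x' : E) : Prop :=
  dist x x' = 1 ∧ ∃ Q Q' : Set (Fin 6), MS U Q x ∧ MS U Q' x' ∧ 4 ≤ Q.ncard ∧ 4 ≤ Q'.ncard ∧
    3 ≤ (Q ∩ Q').ncard

/-- `x` is a two-pair point, `x'` at distance one has a minimal sufficient set with at least four
elements and is a limit of exact arcs of the unit circle about `x` -/
def EV {E : Type*} [PseudoMetricSpace E] (U : Fin 6 → Set E) (x x' : E) : Prop :=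
  dist x x' = 1 ∧ ∃ a b c d : Fin 6, [a, b, c, d].Nodup ∧ MS U {a, b, c, d} x ∧
    (∃ p q, dist p x = 1 ∧ dist q x = 1 ∧ ∃ r > 0,
      (∀ y, dist y x = 1 → dist y p < r → y ∈ closure (U a) ∧ y ∈ closure (U b) ∧
        y ∉ closure ((⋃ j, U j) \ ⋃ i ∈ ({a, b} : Set (Fin 6)), U i)) ∧
      ∀ y, dist y x = 1 → dist y q < r → y ∈ closure (U c) ∧ y ∈ closure (U d) ∧
        y ∉ closure ((⋃ j, U j) \ ⋃ i ∈ ({c, d} : Set (Fin 6)), U i)) ∧
    (∃ Q : Set (Fin 6), 4 ≤ Q.ncard ∧ MS U Q x') ∧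
    ∀ ε > 0, ∃ p, dist p x = 1 ∧ dist p x' < ε ∧ ∃ r > 0,
      ∀ y, dist y x = 1 → dist y p < r → y ∈ closure (U a) ∧ y ∈ closure (U b) ∧
        y ∉ closure ((⋃ j, U j) \ ⋃ i ∈ ({a, b} : Set (Fin 6)), U i)

/-- no exact arc of the circle of a two-pair point accumulates at a point with at least four
colours -/
def E3 (T : ℂ → Set (Fin 6)) : Prop :=
  ∀ {z : ℂ} {a b c d : Fin 6}, DPt T z a b c d → ∀ {y : ℂ}, dist y z = 1 → 4 ≤ (T y).ncard →
    ¬ Acc T z {a, b} y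

/-- palettes with at least four colours are minimal sufficient sets -/
theorem MS_of {U : Fin 6 → Set ℂ} {T : ℂ → Set (Fin 6)} (h : Irr U T) (hmin : Mn U T)
    (hd : Dense (⋃ i, U i)) {x : ℂ} (hx : 4 ≤ (T x).ncard) : MS U (T x) x := by
  refine ⟨Irr_suff h x, fun s hs => ?_⟩
  by_contra hcon
  exact hmin x hx s hs.subset hs.ne (suf_of_notMem hd hcon)

/-- **The frame.** A relation `R` of pairs at distance one without limits between points of order
`> 3` does not hold between points with at least four colours. -/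
theorem exists_frame_rel {U : Fin 6 → Set ℂ}
    (hU : ∀ i, Maximal (fun W : Set ℂ => IsOpen W ∧ ∀ x ∈ W, ∀ y ∈ W, dist x y ≠ 1) (U i))
    (hd : Dense (⋃ i, U i)) {n : ℕ} (hn : 3 ≤ n) (h4 : ∀ z, z ∉ XU U n) {R : Set (ℂ × ℂ)}
    (hR : ∀ p ∈ R, dist p.1 p.2 = 1)
    (hX : ∀ z ∈ XU U 3, ∀ z' ∈ XU U 3, (z, z') ∉ closure R) :
    ∃ T, Irr U T ∧ Mn U T ∧ (∀ z, (T z).ncard ≤ n) ∧
      ∀ z z', 4 ≤ (T z).ncard → 4 ≤ (T z').ncard → (z, z') ∉ closure R := by
  classical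
  have hK1 : ∀ p ∈ closure R, dist p.1 p.2 = 1 := by
    intro p hp
    have hc : IsClosed {p : ℂ × ℂ | dist p.1 p.2 = 1} :=
      isClosed_eq (continuous_fst.dist continuous_snd) continuous_const
    exact closure_minimal (fun p hp => hR p hp) hc hp
  obtain ⟨V, hV, hXV, hfree⟩ := exists_open_avoid isClosed_closure (isClosed_XU U 3) hK1 hX
  set N : ℂ → ℕ := fun x => if x ∈ V then n else 3 with hNdef
  have hNs : ∀ x, ∀ᶠ w in 𝓝 x, N x ≤ N w := by
    intro x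
    by_cases hx : x ∈ V
    · filter_upwards [hV.mem_nhds hx] with w hw
      simp only [hNdef, if_pos hx, if_pos hw, le_refl]
    · filter_upwards with w
      simp only [hNdef, if_neg hx]
      split_ifs <;> omega
  have hN3 : ∀ x, 3 ≤ N x := by
    intro x
    simp only [hNdef]
    split_ifs <;> omega
  have hex : ∀ m z, z ∉ XU U m → ∃ s : Set (Fin 6), s.ncard ≤ m ∧
      ∀ᶠ w in 𝓝 z, ∃ i ∈ s, w ∈ U i ∨ (w ∈ XX U ∧ i ∈ Pal U w) := by
    intro m z hz
    simp only [XU, mem_ofPred_eq] at hz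
    push Not at hz
    obtain ⟨s, hs, hsz⟩ := hz
    exact ⟨s, hs, suf_of_notMem hd hsz⟩
  obtain ⟨T, hT, hmin, hle⟩ := exists_frameN (Mx_of_maximal hU hd)
    (fun i x hx => (mem_iff_of_maximal (hU i) x).2 hx) hNs hN3 (fun z _ => by
      by_cases hz : z ∈ V
      · obtain ⟨s, h1, h2⟩ := hex n z (h4 z)
        exact ⟨s, by simpa only [hNdef, if_pos hz] using h1, h2⟩
      · obtain ⟨s, h1, h2⟩ := hex 3 z fun h => hz (hXV h)
        exact ⟨s, by simpa only [hNdef, if_neg hz] using h1, h2⟩)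
  have hV4 : ∀ v, 4 ≤ (T v).ncard → v ∈ V := by
    intro v hv
    by_contra hcon
    have h1 := hle v
    simp only [hNdef, if_neg hcon] at h1
    omega
  refine ⟨T, hT, hmin, fun z => (hle z).trans ?_, fun z z' hz hz' =>
    hfree z (hV4 z hz) z' (hV4 z' hz')⟩
  simp only [hNdef]
  split_ifs <;> omega

/-- the relation `WV` from the palettes -/
theorem WV_of {U : Fin 6 → Set ℂ} {T : ℂ → Set (Fin 6)} (h : Irr U T) (hmin : Mn U T)
    (hd : Dense (⋃ i, U i)) {x y : ℂ} (hxy : dist x y = 1) (hx : 4 ≤ (T x).ncard)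
    (hy : 4 ≤ (T y).ncard) (h3 : 3 ≤ (T x ∩ T y).ncard) : WV U x y :=
  ⟨hxy, T x, T y, MS_of h hmin hd hx, MS_of h hmin hd hy, hx, hy, h3⟩

/-- the relation `EV` from the palettes -/
theorem EV_of {U : Fin 6 → Set ℂ} {T : ℂ → Set (Fin 6)} (h : Irr U T) (hmin : Mn U T)
    (hd : Dense (⋃ i, U i)) {z y : ℂ} {a b c d : Fin 6} (hz : DPt T z a b c d)
    (hyz : dist y z = 1) (hy : 4 ≤ (T y).ncard) (hA : Acc T z {a, b} y) : EV U z y := by
  obtain ⟨p, hp1, hp2⟩ := hz.arc1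
  obtain ⟨q, hq1, hq2⟩ := hz.arc2
  obtain ⟨r, hr, h1⟩ := arc_radius h hp2
  obtain ⟨r', hr', h2⟩ := arc_radius h hq2
  refine ⟨by rw [dist_comm]; exact hyz, a, b, c, d, ?_, ?_, ?_, ⟨T y, hy, MS_of h hmin hd hy⟩, ?_⟩
  · simp [hz.ab, hz.ac, hz.ad, hz.bc, hz.bd, hz.cd]
  · rw [← hz.pal]; exact MS_of h hmin hd (ncard_DPt hz)
  · exact ⟨p, q, hp1, hq1, min r r', lt_min hr hr',
      fun y hy hyp => h1 y hy (hyp.trans_le (min_le_left _ _)),
      fun y hy hyp => h2 y hy (hyp.trans_le (min_le_right _ _))⟩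
  · intro ε hε
    obtain ⟨p, hpV, hpz, hp⟩ := hA (ball y ε) (ball_mem_nhds y hε)
    obtain ⟨r, hr, h3⟩ := arc_radius h hp
    exact ⟨p, hpz, mem_ball.1 hpV, r, hr, h3⟩

/-- the frame `WT` -/
theorem exists_T_WT {U : Fin 6 → Set ℂ}
    (hU : ∀ i, Maximal (fun W : Set ℂ => IsOpen W ∧ ∀ x ∈ W, ∀ y ∈ W, dist x y ≠ 1) (U i))
    (hd : Dense (⋃ i, U i)) {n : ℕ} (hn : 3 ≤ n) (h4 : ∀ z, z ∉ XU U n)
    (hX : ∀ z ∈ XU U 3, ∀ z' ∈ XU U 3, (z, z') ∉ closure {p : ℂ × ℂ | WV U p.1 p.2}) :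
    ∃ T, Irr U T ∧ Mn U T ∧ (∀ z, (T z).ncard ≤ n) ∧ WT U T := by
  obtain ⟨T, hT, hmin, hle, hfree⟩ := exists_frame_rel hU hd hn h4 (fun p hp => hp.1) hX
  refine ⟨T, hT, hmin, hle, hT, fun {x y} hxy hy hx => ?_⟩
  by_contra hcon
  have h3 : 3 ≤ (T y ∩ T x).ncard := by omega
  exact hfree y x hy hx (subset_closure (WV_of hT hmin hd hxy hy hx h3))

/-- the frame `E3` -/
theorem exists_T_E3 {U : Fin 6 → Set ℂ}
    (hU : ∀ i, Maximal (fun W : Set ℂ => IsOpen W ∧ ∀ x ∈ W, ∀ y ∈ W, dist x y ≠ 1) (U i))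
    (hd : Dense (⋃ i, U i)) {n : ℕ} (hn : 3 ≤ n) (h4 : ∀ z, z ∉ XU U n)
    (hX : ∀ z ∈ XU U 3, ∀ z' ∈ XU U 3, (z, z') ∉ closure {p : ℂ × ℂ | EV U p.1 p.2}) :
    ∃ T, Irr U T ∧ Mn U T ∧ (∀ z, (T z).ncard ≤ n) ∧ E3 T := by
  obtain ⟨T, hT, hmin, hle, hfree⟩ := exists_frame_rel hU hd hn h4 (fun p hp => hp.1) hX
  exact ⟨T, hT, hmin, hle, fun {z a b c d} hz {y} hyz hy hA =>
    hfree z y (ncard_DPt hz) hy (subset_closure (EV_of hT hmin hd hz hyz hy hA))⟩

section plane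

variable {U : Fin 6 → Set (EuclideanSpace ℝ (Fin 2))}

theorem hMS {Q : Set (Fin 6)} {x : ℂ} (hx : MS (fun i => φ ⁻¹' U i) Q x) : MS U Q (φ x) := by
  obtain ⟨h1, h2⟩ := hx
  rw [hdf, hcl] at h1
  refine ⟨h1, fun s hs => ?_⟩
  have := h2 s hs
  rw [hdf, hcl] at this
  exact this

theorem hWV (x x' : ℂ) (hx : WV (fun i => φ ⁻¹' U i) x x') : WV U (φ x) (φ x') := by
  obtain ⟨h1, Q, Q', hQ, hQ', h2⟩ := hx
  exact ⟨by rw [φ.dist_map]; exact h1, Q, Q', hMS hQ, hMS hQ', h2⟩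

theorem hEV (x x' : ℂ) (hx : EV (fun i => φ ⁻¹' U i) x x') : EV U (φ x) (φ x') := by
  obtain ⟨h1, a, b, c, d, nd, hx, ⟨p, q, hp, hq, r, hr, hr1, hr2⟩, ⟨Q, hQ, hx'⟩, hA⟩ := hx
  have key : ∀ {i j : Fin 6} {r : ℝ} {p : ℂ},
      (∀ y, dist y x = 1 → dist y p < r → y ∈ closure (φ ⁻¹' U i) ∧ y ∈ closure (φ ⁻¹' U j) ∧
        y ∉ closure ((⋃ j, φ ⁻¹' U j) \ ⋃ k ∈ ({i, j} : Set (Fin 6)), φ ⁻¹' U k)) →
      ∀ y, dist y (φ x) = 1 → dist y (φ p) < r → y ∈ closure (U i) ∧ y ∈ closure (U j) ∧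
        y ∉ closure ((⋃ j, U j) \ ⋃ k ∈ ({i, j} : Set (Fin 6)), U k) := by
    intro i j r p h y hy hyp
    obtain ⟨y', rfl⟩ := φ.surjective y
    rw [φ.dist_map] at hy hyp
    have := h y' hy hyp
    rw [hdf, hcl, hcl, hcl] at this
    exact this
  refine ⟨by rw [φ.dist_map]; exact h1, a, b, c, d, nd, hMS hx,
    ⟨φ p, φ q, by rw [φ.dist_map]; exact hp, by rw [φ.dist_map]; exact hq, r, hr, key hr1,
      key hr2⟩, ⟨Q, hQ, hMS hx'⟩, fun ε hε => ?_⟩
  obtain ⟨p, hp, hpε, r, hr, hA⟩ := hA ε hε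
  exact ⟨φ p, by rw [φ.dist_map]; exact hp, by rw [φ.dist_map]; exact hpε, r, hr, key hA⟩

/-- transfer of a relation and its closure from `ℂ` to the plane -/
theorem closure_transfer {R : Set (ℂ × ℂ)}
    {R' : Set (EuclideanSpace ℝ (Fin 2) × EuclideanSpace ℝ (Fin 2))}
    (h : ∀ x x', (x, x') ∈ R → (φ x, φ x') ∈ R') {z z' : ℂ} (hz : (z, z') ∈ closure R) :
    (φ z, φ z') ∈ closure R' := by
  have hc : Continuous (Prod.map φ φ) := φ.continuous.prodMap φ.continuous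
  have h1 := image_closure_subset_closure_image hc (mem_image_of_mem _ hz)
  refine closure_mono ?_ h1
  rintro _ ⟨p, hp, rfl⟩
  exact h _ _ hp

/-- **Two points of order `> 3` at distance one with three common colours, statement in the
plane.** -/
theorem exists_pairW_of {n : ℕ} (hn : 3 ≤ n)
    (top : ∀ (V : Fin 6 → Set ℂ) (T : ℂ → Set (Fin 6)), Irr V T → Mn V T → WT V T →
      (∀ z, (T z).ncard ≤ n) → False)
    (hU : ∀ i, Maximal (fun W : Set (EuclideanSpace ℝ (Fin 2)) =>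
      IsOpen W ∧ ∀ x ∈ W, ∀ y ∈ W, dist x y ≠ 1) (U i))
    (hd : Dense (⋃ i, U i)) :
    (∃ z, z ∈ XU U n) ∨ ∃ z z', dist z z' = 1 ∧ z ∈ XU U 3 ∧ z' ∈ XU U 3 ∧
      (z, z') ∈ closure {p : EuclideanSpace ℝ (Fin 2) × EuclideanSpace ℝ (Fin 2) |
        WV U p.1 p.2} := by
  by_contra hcon
  push Not at hcon
  obtain ⟨h4, hX⟩ := hcon
  have hdist : ∀ p ∈ closure {p : ℂ × ℂ | WV (fun i => φ ⁻¹' U i) p.1 p.2},
      dist p.1 p.2 = 1 := by
    intro p hp
    have hc : IsClosed {p : ℂ × ℂ | dist p.1 p.2 = 1} :=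
      isClosed_eq (continuous_fst.dist continuous_snd) continuous_const
    exact closure_minimal (fun p hp => hp.1) hc hp
  obtain ⟨T, h1, h2, h3, h5⟩ := exists_T_WT (U := fun i => φ ⁻¹' U i)
    (fun i => maximal_preimage (hU i) φ) (by
      rw [← preimage_iUnion]
      exact hd.preimage φ.toHomeomorph.isOpenMap) hn
    (fun z hz => h4 (φ z) (hXU n z hz))
    (fun z hz z' hz' h => hX (φ z) (φ z') (by rw [φ.dist_map]; exact hdist _ h) (hXU 3 z hz)
      (hXU 3 z' hz') (closure_transfer (fun x x' h => hWV x x' h) h))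
  exact top _ T h1 h2 h5 h3

/-- **Stopped exact arcs, statement in the plane.** -/
theorem exists_e3V_of {n : ℕ} (hn : 3 ≤ n)
    (top : ∀ (V : Fin 6 → Set ℂ) (T : ℂ → Set (Fin 6)), Irr V T → Mn V T → E3 T →
      (∀ z, (T z).ncard ≤ n) → False)
    (hU : ∀ i, Maximal (fun W : Set (EuclideanSpace ℝ (Fin 2)) =>
      IsOpen W ∧ ∀ x ∈ W, ∀ y ∈ W, dist x y ≠ 1) (U i))
    (hd : Dense (⋃ i, U i)) :
    (∃ z, z ∈ XU U n) ∨ ∃ z z', dist z z' = 1 ∧ z ∈ XU U 3 ∧ z' ∈ XU U 3 ∧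
      (z, z') ∈ closure {p : EuclideanSpace ℝ (Fin 2) × EuclideanSpace ℝ (Fin 2) |
        EV U p.1 p.2} := by
  by_contra hcon
  push Not at hcon
  obtain ⟨h4, hX⟩ := hcon
  have hdist : ∀ p ∈ closure {p : ℂ × ℂ | EV (fun i => φ ⁻¹' U i) p.1 p.2},
      dist p.1 p.2 = 1 := by
    intro p hp
    have hc : IsClosed {p : ℂ × ℂ | dist p.1 p.2 = 1} :=
      isClosed_eq (continuous_fst.dist continuous_snd) continuous_const
    exact closure_minimal (fun p hp => hp.1) hc hp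
  obtain ⟨T, h1, h2, h3, h5⟩ := exists_T_E3 (U := fun i => φ ⁻¹' U i)
    (fun i => maximal_preimage (hU i) φ) (by
      rw [← preimage_iUnion]
      exact hd.preimage φ.toHomeomorph.isOpenMap) hn
    (fun z hz => h4 (φ z) (hXU n z hz))
    (fun z hz z' hz' h => hX (φ z) (φ z') (by rw [φ.dist_map]; exact hdist _ h) (hXU 3 z hz)
      (hXU 3 z' hz') (closure_transfer (fun x x' h => hEV x x' h) h))
  exact top _ T h1 h2 h5 h3

end plane

end Vale.Agent.P032.Six
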